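import Vale.Agent.P331.F.Rows

/-!
# Rows A5: significance (`RowCtx`, `RowR`)
-/

set_option autoImplicit false
set_option linter.unusedSectionVars false

namespace Vale.Agent.P331.F.H105

open Finset Vale.Agent.P331.H250 Vale.Agent.P331.F
open Vale.Agent.P331.H489 (EX EX_split)
open scoped Classical

noncomputable section

variable {E : Type} [Fintype E]

theorem ind_nonneg (P : Prop) : 0 ≤ ind P := by unfold ind; split_ifs <;> norm_num

theorem ind_le_one (P : Prop) : ind P ≤ 1 := by unfold ind; split_ifs <;> norm_num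

theorem ind_mono {A B : Prop} (h : A → B) : ind A ≤ ind B := by
  unfold ind
  by_cases hA : A
  · rw [if_pos hA, if_pos (h hA)]
  · rw [if_neg hA]
    split_ifs <;> norm_num

theorem ind_gap (A B : Prop) : ind (¬ A) - ind (¬ B) ≤ ind (B ∧ ¬ A) := by
  unfold ind
  by_cases hA : A <;> by_cases hB : B <;> simp [hA, hB]

theorem Th_mono {t : ℝ} (h0 : 0 ≤ t) (h1 : t ≤ 1) (S : Finset E) {f g : Finset E → ℝ}
    (h : ∀ G, G ⊆ S → f G ≤ g G) : Th t S f ≤ Th t S g :=
  TH_mono (fun _ => h0) (fun _ => h1) S h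

theorem Th_nonneg {t : ℝ} (h0 : 0 ≤ t) (h1 : t ≤ 1) (S : Finset E) {f : Finset E → ℝ}
    (h : ∀ G, G ⊆ S → 0 ≤ f G) : 0 ≤ Th t S f :=
  TH_nonneg (fun _ => h0) (fun _ => h1) S h

theorem Th_mul (t : ℝ) (S : Finset E) (c : ℝ) (f : Finset E → ℝ) :
    Th t S (fun G => c * f G) = c * Th t S f := TH_mul _ _ _ _

theorem Th_sub (t : ℝ) (S : Finset E) (f g : Finset E → ℝ) :
    Th t S (fun G => f G - g G) = Th t S f - Th t S g := TH_sub _ _ _ _

/-- splitting off one element -/
theorem Th_split {t : ℝ} {S : Finset E} {e : E} (he : e ∈ S) (f : Finset E → ℝ) :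
    Th t S f = t * Th t (S.erase e) (fun G => f (insert e G)) +
      (1 - t) * Th t (S.erase e) f := by
  unfold Th TH
  rw [EX_split e false (bw (fun _ => t) S), Fintype.sum_bool]
  have hw : Function.update (bw (fun _ => t) S) e (Pi.single false 1) =
      bw (fun _ => t) (S.erase e) := by
    funext a b
    by_cases ha : a = e
    · subst ha
      cases b <;> simp [bw]
    · simp [bw, ha]
  rw [hw]
  have h1 : bw (fun _ => t) S e true = t := by simp [bw, he]
  have h2 : bw (fun _ => t) S e false = 1 - t := by simp [bw, he]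
  rw [h1, h2]
  congr 2
  · refine EX_congr (fun _ _ => rfl) fun ω => ?_
    congr 1
    ext a
    rw [mem_tset, mem_insert, mem_tset]
    by_cases ha : a = e
    · subst ha
      simp
    · simp [ha]
  · refine EX_congr_supp fun ω hω => ?_
    congr 1
    ext a
    rw [mem_tset, mem_tset]
    by_cases ha : a = e
    · subst ha
      have h3 := hω a
      have h4 : ω a = false := by
        by_contra h5
        apply h3
        simp [bw, h5]
      simp [h4]
    · simp [Function.update_of_ne ha]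

/-- the gap of a good fragment -/
theorem gap_good {t : ℝ} (ht0 : 0 ≤ t) (ht1 : t ≤ 1) {l : Lv} (hδ : 0 ≤ l.δ)
    {D : Finset E → Prop} (S G Y : Finset E) {f : E} (hf : f ∈ Y)
    (h1 : good t l D S G Y) (h2 : ¬ good t l D S G (Y.erase f)) :
    l.δ / ((l.κ : ℝ) + 1) ^ 2 ≤ Th t (S \ G) (fun N => ind
      (D (insert f (Y.erase f ∪ G ∪ N)) ∧ ¬ D (Y.erase f ∪ G ∪ N))) := by
  obtain ⟨hk, h1⟩ := h1
  have hc : (Y.erase f).card + 1 = Y.card := card_erase_add_one hf
  have h3 : l.δ / (((Y.erase f).card : ℝ) + 1) <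
      Th t (S \ G) (fun N => ind (¬ D (Y.erase f ∪ G ∪ N))) := by
    by_contra h4
    exact h2 ⟨by omega, not_lt.1 h4⟩
  have hc' : ((Y.erase f).card : ℝ) + 1 = Y.card := by exact_mod_cast hc
  rw [hc'] at h3
  have hY1 : (1 : ℝ) ≤ Y.card := by
    have : 1 ≤ Y.card := by omega
    exact_mod_cast this
  have hYk : (Y.card : ℝ) ≤ l.κ := by exact_mod_cast hk
  have h5 : l.δ / ((l.κ : ℝ) + 1) ^ 2 ≤ l.δ / Y.card - l.δ / (Y.card + 1) := by
    have h6 : l.δ / Y.card - l.δ / (Y.card + 1) = l.δ / (Y.card * (Y.card + 1)) := by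
      field_simp
      ring
    rw [h6]
    refine div_le_div_of_nonneg_left hδ (by positivity) ?_
    nlinarith
  have h7 : Th t (S \ G) (fun N => ind (¬ D (Y.erase f ∪ G ∪ N))) -
      Th t (S \ G) (fun N => ind (¬ D (Y ∪ G ∪ N))) ≤ Th t (S \ G) (fun N => ind
      (D (insert f (Y.erase f ∪ G ∪ N)) ∧ ¬ D (Y.erase f ∪ G ∪ N))) := by
    rw [← Th_sub]
    refine Th_mono ht0 ht1 _ fun N _ => ?_
    have h8 : insert f (Y.erase f ∪ G ∪ N) = Y ∪ G ∪ N := by
      ext a
      simp only [mem_insert, mem_union, mem_erase]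
      by_cases ha : a = f
      · subst ha
        simp [hf]
      · simp [ha]
    rw [h8]
    exact ind_gap _ _
  linarith

theorem xx_one_le {B : ℕ} (hB : 16 ≤ B) (j : ℕ) : (1 : ℝ) ≤ (xx B j : ℝ) := by
  have : 1 ≤ xx B j := Nat.one_le_pow _ _ (by omega)
  exact_mod_cast this

theorem xx_two_le {B : ℕ} (hB : 16 ≤ B) (j : ℕ) : (2 : ℝ) ≤ (xx B j : ℝ) := by
  have h11 : 2 ^ 1 ≤ B ^ 200 ^ j :=
    (Nat.pow_le_pow_right (by norm_num) (Nat.one_le_pow _ _ (by norm_num))).trans
      (Nat.pow_le_pow_left (by omega) _)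
  have : 2 ≤ xx B j := by simpa [xx] using h11
  exact_mod_cast this

theorem two_pow_le {B : ℕ} (hB : 16 ≤ B) (j : ℕ) :
    (2 : ℝ) ^ (lev B j).κ ≤ (xx B j : ℝ) := by
  have h : 2 ^ (200 ^ j - 1) ≤ B ^ 200 ^ j :=
    (Nat.pow_le_pow_right (by norm_num) (Nat.sub_le _ _)).trans
      (Nat.pow_le_pow_left (by omega) _)
  have h' : ((2 ^ (200 ^ j - 1) : ℕ) : ℝ) ≤ ((B ^ 200 ^ j : ℕ) : ℝ) := by exact_mod_cast h
  simpa [lev, xx] using h'

theorem kap_le {B : ℕ} (hB : 16 ≤ B) (j : ℕ) :
    ((lev B j).κ : ℝ) + 1 ≤ (xx B j : ℝ) := by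
  have h0 : 1 ≤ 200 ^ j := Nat.one_le_pow _ _ (by norm_num)
  have h : 200 ^ j ≤ B ^ 200 ^ j :=
    (Nat.lt_two_pow_self (n := 200 ^ j)).le.trans (Nat.pow_le_pow_left (by omega) _)
  have h2 : (lev B j).κ + 1 ≤ xx B j := by
    show 200 ^ j - 1 + 1 ≤ B ^ 200 ^ j
    omega
  exact_mod_cast h2

theorem t_bounds {p g n lam : ℝ} {B : ℕ} (c : Cst p g n lam B) :
    0 ≤ n / (1 - g) ∧ n / (1 - g) ≤ 1 := by
  have h1 := c.n0
  have h2 := c.n1
  have h3 := c.gn
  have h4 : 0 < 1 - g := by linarith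
  exact ⟨div_nonneg h1.le h4.le, (div_le_one h4).2 (by linarith)⟩

theorem rowCtx : RowCtx := by
  intro p g n lam B c E _ D hD j f
  have ht := t_bounds c
  have hp0 := c.p0
  have hp1 := c.p1
  have hg0 := c.g0
  have hg1 : g ≤ 1 := by linarith [c.gn, c.n1]
  set t := n / (1 - g) with htdef
  set l := lev B j with hl
  set U : Finset E := univ.erase f with hU
  set P : Finset E → Prop := fun A => D (insert f A) ∧ ¬ D A with hP
  have hx1 := xx_one_le c.B16 j
  set x : ℝ := (xx B j : ℝ) with hx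
  have hδ : 0 < l.δ := by
    show 0 < (((xx B j : ℕ) : ℝ) ^ 20)⁻¹
    rw [← hx]
    positivity
  have hk0 : (0 : ℝ) < (l.κ : ℝ) + 1 := by positivity
  have key : ∀ V, V ⊆ U → ∀ G, G ⊆ U \ V → Need t l D (insert f V) G f →
      ∃ Y ⊆ V, Y.card ≤ l.κ ∧ l.δ / ((l.κ : ℝ) + 1) ^ 2 ≤
        Th t ((U \ V) \ G) (fun N => ind (P (Y ∪ G ∪ N))) := by
    rintro V hV G hG ⟨-, Y, hY, hfY, h1, h2⟩
    have hS : univ \ insert f V = U \ V := by
      ext a
      simp only [mem_sdiff, mem_univ, true_and, mem_insert, hU, mem_erase, and_true]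
      tauto
    rw [hS] at h1 h2
    refine ⟨Y.erase f, fun a ha => ?_, (card_erase_le).trans h1.1, ?_⟩
    · rw [mem_erase] at ha
      have := hY ha.2
      rw [mem_insert] at this
      exact this.resolve_left ha.1
    · exact gap_good ht.1 ht.2 hδ.le (U \ V) G Y hfY h1 h2
  have h1 : Th p univ (fun V => Th g (univ \ V) (fun G => ind (Need t l D V G f))) ≤
      Th p U (fun V => Th g (U \ V) (fun G => ind
        (∃ Y ⊆ V, Y.card ≤ l.κ ∧ l.δ / ((l.κ : ℝ) + 1) ^ 2 ≤
          Th t ((U \ V) \ G) (fun N => ind (P (Y ∪ G ∪ N)))))) := by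
    rw [Th_split (mem_univ f)]
    have h2 : Th p (univ.erase f) (fun V => Th g (univ \ V) (fun G => ind (Need t l D V G f))) =
        0 := by
      have : Th p (univ.erase f) (fun V => Th g (univ \ V)
          (fun G => ind (Need t l D V G f))) = Th p (univ.erase f) (fun _ => (0 : ℝ)) := by
        refine TH_congr (fun _ _ => rfl) fun V hV => ?_
        have hfV : f ∉ V := fun h => by simpa using hV h
        have : (fun G => ind (Need t l D V G f)) = fun _ => (0 : ℝ) := by
          funext G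
          unfold ind Need
          rw [if_neg fun h => hfV h.1]
        rw [this]
        exact TH_const _ _ _
      rw [this]
      exact TH_const _ _ _
    rw [h2, mul_zero, add_zero]
    have h3 : 0 ≤ Th p U (fun V => Th g (U \ V) (fun G => ind
        (∃ Y ⊆ V, Y.card ≤ l.κ ∧ l.δ / ((l.κ : ℝ) + 1) ^ 2 ≤
          Th t ((U \ V) \ G) (fun N => ind (P (Y ∪ G ∪ N)))))) :=
      Th_nonneg hp0.le (by linarith) _ fun V _ => Th_nonneg hg0.le hg1 _ fun G _ => ind_nonneg _
    have h4 : Th p (univ.erase f) (fun V => Th g (univ \ insert f V)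
        (fun G => ind (Need t l D (insert f V) G f))) ≤
        Th p U (fun V => Th g (U \ V) (fun G => ind
        (∃ Y ⊆ V, Y.card ≤ l.κ ∧ l.δ / ((l.κ : ℝ) + 1) ^ 2 ≤
          Th t ((U \ V) \ G) (fun N => ind (P (Y ∪ G ∪ N)))))) := by
      refine Th_mono hp0.le (by linarith) _ fun V hV => ?_
      have hS : univ \ insert f V = U \ V := by
        ext a
        simp only [mem_sdiff, mem_univ, true_and, mem_insert, hU, mem_erase, and_true]
        tauto
      rw [hS]
      exact Th_mono hg0.le hg1 _ fun G hG => ind_mono (key V hV G hG)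
    calc p * _ ≤ p * _ := mul_le_mul_of_nonneg_left h4 hp0.le
      _ ≤ 1 * _ := mul_le_mul_of_nonneg_right (by linarith) h3
      _ = _ := one_mul _
  refine h1.trans ((c.hc E P U l.κ _ (by positivity)).trans ?_)
  have hJ : Th ((1 - p) * (g + n)) U (fun N => ind (P N)) = JJ ((1 - p) * (g + n)) D f := rfl
  rw [hJ]
  have hn0 := c.n0
  have hn1 := c.n1
  have hgn := c.gn
  have hJ0 : 0 ≤ JJ ((1 - p) * (g + n)) D f :=
    Th_nonneg (by nlinarith) (by nlinarith) _ fun _ _ => ind_nonneg _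
  refine mul_le_mul_of_nonneg_right ?_ (pow_nonneg hJ0 _)
  refine pow_le_pow_left₀ (by positivity) ?_ _
  rw [div_div_eq_mul_div]
  have h5 : l.δ = (x ^ 20)⁻¹ := rfl
  rw [h5, div_inv_eq_mul]
  calc (2 : ℝ) ^ l.κ * ((l.κ : ℝ) + 1) ^ 2 * x ^ 20 ≤ x * x ^ 2 * x ^ 20 := by
        refine mul_le_mul_of_nonneg_right ?_ (by positivity)
        refine mul_le_mul (two_pow_le c.B16 j) ?_ (by positivity) (by positivity)
        exact pow_le_pow_left₀ hk0.le (kap_le c.B16 j) 2
    _ = x ^ 23 := by ring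

theorem rowR (hC : RowCtx) : RowR := by
  intro p g n lam B c E _ D hD j b
  have ht := t_bounds c
  have hp0 := c.p0
  have hp1 := c.p1
  have hg0 := c.g0
  have hg1 : g ≤ 1 := by linarith [c.gn, c.n1]
  have hctx := hC p g n lam B c E D hD j b
  set t := n / (1 - g) with htdef
  set l := lev B j with hl
  have hx1 := xx_one_le c.B16 j
  set x : ℝ := (xx B j : ℝ) with hx
  have hτ : l.τ = x⁻¹ := rfl
  have hZ : (l.Z : ℝ) = x ^ 161 := by
    show ((xx B j ^ 161 : ℕ) : ℝ) = _
    rw [hx]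
    push_cast
    rfl
  have hx0 : 0 < x := by linarith
  have key : ∀ V : Finset E, (∃ X ⊆ V, b ∈ X ∧ vio g t l D (univ \ V) X ∧
      ∀ X' ⊂ X, ¬ vio g t l D (univ \ V) X') →
      (x ^ 325)⁻¹ ≤ Th g (univ \ V) (fun G => ind (Need t l D V G b)) := by
    rintro V ⟨X, hXV, hbX, ⟨hXZ, hX⟩, hmin⟩
    have hX' := hmin (X.erase b) (erase_ssubset hbX)
    have hc : (X.erase b).card + 1 = X.card := card_erase_add_one hbX
    have h3 : l.τ / (((X.erase b).card : ℝ) + 1) < ff g t l D (univ \ V) (X.erase b) := by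
      by_contra h4
      exact hX' ⟨by omega, not_lt.1 h4⟩
    have hc' : ((X.erase b).card : ℝ) + 1 = X.card := by exact_mod_cast hc
    rw [hc'] at h3
    have hY1 : (1 : ℝ) ≤ X.card := by
      have : 1 ≤ X.card := by omega
      exact_mod_cast this
    have hYk : (X.card : ℝ) ≤ x ^ 161 := by
      rw [← hZ]
      exact_mod_cast hXZ
    have h5 : (x ^ 325)⁻¹ ≤ l.τ / X.card - l.τ / (X.card + 1) := by
      have h6 : l.τ / X.card - l.τ / (X.card + 1) = l.τ / (X.card * (X.card + 1)) := by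
        field_simp
        ring
      rw [h6, hτ, inv_div_left, ]
      have h7 : (X.card : ℝ) * (X.card + 1) * x ≤ x ^ 325 := by
        have h8 : (X.card : ℝ) + 1 ≤ x ^ 163 := by
          have h9 : (1 : ℝ) ≤ x ^ 161 := one_le_pow₀ hx1
          have h10 : 2 ≤ x := xx_two_le c.B16 j
          have h12 : 2 * x ^ 161 ≤ x ^ 2 * x ^ 161 :=
            mul_le_mul_of_nonneg_right (by nlinarith) (by positivity)
          have h13 : x ^ 163 = x ^ 2 * x ^ 161 := by ring
          rw [h13]
          linarith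
        calc (X.card : ℝ) * (X.card + 1) * x ≤ x ^ 161 * x ^ 163 * x := by
              refine mul_le_mul_of_nonneg_right ?_ hx0.le
              exact mul_le_mul hYk h8 (by positivity) (by positivity)
          _ = x ^ 325 := by ring
      exact inv_anti₀ (by positivity) (by nlinarith)
    have h7 : ff g t l D (univ \ V) (X.erase b) - ff g t l D (univ \ V) X ≤
        Th g (univ \ V) (fun G => ind (Need t l D V G b)) := by
      unfold ff
      rw [← Th_sub]
      refine Th_mono hg0.le hg1 _ fun G _ => ?_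
      unfold ind
      by_cases h8 : ∃ Y ⊆ X, good t l D (univ \ V) G Y
      · by_cases h9 : ∃ Y ⊆ X.erase b, good t l D (univ \ V) G Y
        · rw [if_neg (not_not.2 h8), if_neg (not_not.2 h9)]
          split_ifs <;> norm_num
        · obtain ⟨Y, hY, hg⟩ := h8
          have hbY : b ∈ Y := by
            by_contra h10
            exact h9 ⟨Y, fun a ha => mem_erase.2 ⟨fun h => h10 (h ▸ ha), hY ha⟩, hg⟩
          have hN : Need t l D V G b := ⟨hXV hbX, Y, hY.trans hXV, hbY, hg,
            fun h11 => h9 ⟨Y.erase b, erase_subset_erase b hY, h11⟩⟩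
          rw [if_pos hN]
          split_ifs <;> norm_num
      · have h9 : ¬ ∃ Y ⊆ X.erase b, good t l D (univ \ V) G Y := by
          rintro ⟨Y, hY, hg⟩
          exact h8 ⟨Y, hY.trans (erase_subset _ _), hg⟩
        rw [if_pos h8, if_pos h9]
        split_ifs <;> norm_num
    linarith
  calc Th p univ (fun V => ind (∃ X ⊆ V, b ∈ X ∧ vio g t l D (univ \ V) X ∧
      ∀ X' ⊂ X, ¬ vio g t l D (univ \ V) X'))
      ≤ Th p univ (fun V => x ^ 325 * Th g (univ \ V) (fun G => ind (Need t l D V G b))) := by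
        refine Th_mono hp0.le (by linarith) _ fun V _ => ?_
        have h0 : 0 ≤ Th g (univ \ V) (fun G => ind (Need t l D V G b)) :=
          Th_nonneg hg0.le hg1 _ fun _ _ => ind_nonneg _
        by_cases hV : ∃ X ⊆ V, b ∈ X ∧ vio g t l D (univ \ V) X ∧
            ∀ X' ⊂ X, ¬ vio g t l D (univ \ V) X'
        · have h1 := mul_le_mul_of_nonneg_left (key V hV) (pow_nonneg hx0.le 325)
          rw [mul_inv_cancel₀ (pow_pos hx0 325).ne'] at h1
          exact (ind_le_one _).trans h1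
        · unfold ind
          rw [if_neg hV]
          exact mul_nonneg (pow_nonneg hx0.le _) h0
    _ = x ^ 325 * Th p univ (fun V => Th g (univ \ V) (fun G => ind (Need t l D V G b))) :=
        Th_mul _ _ _ _
    _ ≤ x ^ 325 * ((x ^ 23) ^ 1200 * JJ ((1 - p) * (g + n)) D b ^ 600) :=
        mul_le_mul_of_nonneg_left hctx (pow_nonneg hx0.le _)
    _ = x ^ 27925 * JJ ((1 - p) * (g + n)) D b ^ 600 := by
        rw [← mul_assoc, ← pow_mul, ← pow_add]

end

end Vale.Agent.P331.F.H105
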